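import Vale.Agent.P315.H679.AccDefs
import Vale.Agent.P315.H335.Window
import Vale.Agent.P315.H731.Avg

/-!
STEP 1 of Part A (row A-1): heavy blocks of the jittered weighted average of the curves of the
children, in expectation over the jitters, leaf by leaf.
-/

set_option autoImplicit false

open Finset

namespace Vale.Agent.P315.H226

open Vale.Agent.P315.Acc
open Vale.Agent.P315.H335 (wd wd_nonneg wd_le_one av_wd)
open Vale.Agent.P315.H731 (av av_add av_const_mul av_mul_const av_sum av_mono av_nonneg av_const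
  av_congr av_eval₂ av_eval av_comm)

section Pre

/-- The drops of an antitone curve with values in `[0,1]` over consecutive blocks. -/
theorem sum_blocks {c : ℤ → ℝ} (h0 : ∀ b, 0 ≤ c b) (h1 : ∀ b, c b ≤ 1)
    (D N : ℕ) (z : ℤ) : ∑ k ∈ range N, wd c D (z + (k : ℤ) * D) ≤ 1 := by
  have h : ∀ n : ℕ, ∑ k ∈ range n, wd c D (z + (k : ℤ) * D) = c z - c (z + (n : ℤ) * D) := by
    intro n
    induction n with
    | zero => simp
    | succ n ih =>
      rw [sum_range_succ, ih]
      unfold wd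
      have : z + (n : ℤ) * D + D = z + ((n + 1 : ℕ) : ℤ) * D := by push_cast; ring
      rw [this]; ring
  rw [h]
  have := h0 (z + (N : ℤ) * D)
  have := h1 z
  linarith

/-- Pointwise: what is above the threshold is paid by the bad part and by a product. -/
theorem pay {t Rb Rg R : ℝ} (ht : 0 < t) (hb : 0 ≤ Rb) (hg : 0 ≤ Rg) (hR : R = Rb + Rg) :
    ind (t ≤ R) * R ≤ Rb + t⁻¹ * (Rg * R) := by
  have hR0 : 0 ≤ R := by rw [hR]; exact add_nonneg hb hg
  have hinv : 0 < t⁻¹ := inv_pos.2 ht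
  by_cases h : t ≤ R
  · rw [ind_true h, one_mul]
    have h1 : 1 ≤ t⁻¹ * R := by
      rw [inv_mul_eq_div, le_div_iff₀ ht]; linarith
    have h2 : Rg ≤ t⁻¹ * (Rg * R) := by
      calc Rg = Rg * 1 := (mul_one _).symm
        _ ≤ Rg * (t⁻¹ * R) := mul_le_mul_of_nonneg_left h1 hg
        _ = t⁻¹ * (Rg * R) := by ring
    linarith
  · rw [ind_false h, zero_mul]
    have := mul_nonneg hinv.le (mul_nonneg hg hR0)
    linarith

end Pre

section Main

variable {X : Type} [Fintype X]

/-- Share of the node of level `a` above `x` in its parent. -/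
noncomputable def share (w : X → ℝ) (q : ℕ → X → ℕ) (a : ℕ) (x : X) : ℝ :=
  (∑ y ∈ univ.filter (fun y => q a y = q a x), w y) /
    ∑ y ∈ univ.filter (fun y => q (a + 1) y = q (a + 1) x), w y

variable {M J : ℕ}

/-- Mass of a jittered curve in a block. -/
noncomputable def nuJ (c : X → ℤ → ℝ) (sh : X → ℤ) (chi : X → Fin M) (D : ℕ)
    (xi : Fin M → Fin (J + 1)) (y : X) (b : ℤ) : ℝ :=
  wd (c y) D (b - sh y - ((xi (chi y) : ℕ) : ℤ))

omit [Fintype X] in
/-- The pair terms. -/
theorem pair_le {c : X → ℤ → ℝ} (hc : ∀ y, Antitone (c y)) (h0 : ∀ y b, 0 ≤ c y b)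
    (h1 : ∀ y b, c y b ≤ 1) (sh : X → ℤ) (chi : X → Fin M) (D N : ℕ) (o : ℤ) (y z : X) :
    av (fun xi : Fin M → Fin (J + 1) => ∑ k ∈ range N,
      nuJ c sh chi D xi y (o + (k : ℤ) * D) * nuJ c sh chi D xi z (o + (k : ℤ) * D)) ≤
      (if chi z = chi y then 1 else 0) + (D : ℝ) / ((J : ℝ) + 1) := by
  have hq0 : 0 ≤ (D : ℝ) / ((J : ℝ) + 1) := by positivity
  have hn : ∀ (xi : Fin M → Fin (J + 1)) y b, 0 ≤ nuJ c sh chi D xi y b := fun xi y b =>
    wd_nonneg (hc y) D _
  have hn1 : ∀ (xi : Fin M → Fin (J + 1)) y b, nuJ c sh chi D xi y b ≤ 1 := fun xi y b =>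
    wd_le_one (h0 y) (h1 y) D _
  have hsum : ∀ (xi : Fin M → Fin (J + 1)) y,
      ∑ k ∈ range N, nuJ c sh chi D xi y (o + (k : ℤ) * D) ≤ 1 := by
    intro xi y
    refine le_trans (le_of_eq ?_)
      (sum_blocks (h0 y) (h1 y) D N (o - sh y - ((xi (chi y) : ℕ) : ℤ)))
    refine sum_congr rfl fun k _ => ?_
    unfold nuJ
    congr 1; ring
  by_cases h : chi z = chi y
  · rw [if_pos h]
    have : av (fun xi : Fin M → Fin (J + 1) => ∑ k ∈ range N,
        nuJ c sh chi D xi y (o + (k : ℤ) * D) * nuJ c sh chi D xi z (o + (k : ℤ) * D)) ≤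
        av (fun _ : Fin M → Fin (J + 1) => (1 : ℝ)) := by
      refine av_mono fun xi => le_trans (sum_le_sum fun k _ => ?_) (hsum xi y)
      have e1 := hn xi y (o + (k : ℤ) * D)
      have e2 := hn1 xi z (o + (k : ℤ) * D)
      nlinarith
    rw [av_const] at this
    linarith
  · rw [if_neg h, zero_add, av_sum]
    have key : ∀ k ∈ range N, av (fun xi : Fin M → Fin (J + 1) =>
        nuJ c sh chi D xi y (o + (k : ℤ) * D) * nuJ c sh chi D xi z (o + (k : ℤ) * D)) ≤
        ((D : ℝ) / ((J : ℝ) + 1)) * av (fun xi : Fin M → Fin (J + 1) =>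
          nuJ c sh chi D xi y (o + (k : ℤ) * D)) := by
      intro k _
      have h' : chi y ≠ chi z := fun e => h e.symm
      have e1 := av_eval₂ (A := fun _ : Fin M => Fin (J + 1)) h'
        (fun u v => wd (c y) D (o + (k : ℤ) * D - sh y - ((u : ℕ) : ℤ)) *
          wd (c z) D (o + (k : ℤ) * D - sh z - ((v : ℕ) : ℤ)))
      have e2 := av_eval (A := fun _ : Fin M => Fin (J + 1)) (chi y)
        (fun u => wd (c y) D (o + (k : ℤ) * D - sh y - ((u : ℕ) : ℤ)))
      have e3 : av (fun v : Fin (J + 1) =>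
          wd (c z) D (o + (k : ℤ) * D - sh z - ((v : ℕ) : ℤ))) ≤ (D : ℝ) / ((J : ℝ) + 1) :=
        av_wd (hc z) (h0 z) (h1 z) D J (o + (k : ℤ) * D - sh z)
      unfold nuJ
      rw [e1, e2]
      simp only [av_const_mul]
      rw [av_mul_const, mul_comm]
      refine mul_le_mul_of_nonneg_right e3 (av_nonneg fun u => wd_nonneg (hc y) D _)
    calc ∑ k ∈ range N, av (fun xi : Fin M → Fin (J + 1) =>
          nuJ c sh chi D xi y (o + (k : ℤ) * D) * nuJ c sh chi D xi z (o + (k : ℤ) * D))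
        ≤ ∑ k ∈ range N, ((D : ℝ) / ((J : ℝ) + 1)) * av (fun xi : Fin M → Fin (J + 1) =>
          nuJ c sh chi D xi y (o + (k : ℤ) * D)) := sum_le_sum key
      _ = ((D : ℝ) / ((J : ℝ) + 1)) * av (fun xi : Fin M → Fin (J + 1) =>
          ∑ k ∈ range N, nuJ c sh chi D xi y (o + (k : ℤ) * D)) := by
          rw [av_sum, mul_sum]
      _ ≤ ((D : ℝ) / ((J : ℝ) + 1)) * av (fun _ : Fin M → Fin (J + 1) => (1 : ℝ)) :=
          mul_le_mul_of_nonneg_left (av_mono fun xi => hsum xi y) hq0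
      _ = (D : ℝ) / ((J : ℝ) + 1) := by rw [av_const, mul_one]

/-- One parent: expected heavy mass of the jittered average. -/
theorem heavy_parent (w : X → ℝ) (hw : ∀ x, 0 < w x) (q : ℕ → X → ℕ) (a : ℕ)
    (chi : X → Fin M)
    (hchi : ∀ x y, q (a + 1) x = q (a + 1) y → chi x = chi y → q a x = q a y)
    {c : X → ℤ → ℝ} (hc : ∀ y, Antitone (c y)) (h0 : ∀ y b, 0 ≤ c y b)
    (h1 : ∀ y b, c y b ≤ 1) (sh : X → ℤ) (D N : ℕ) (o : ℤ) {t q0 : ℝ} (ht : 0 < t) (x : X) :
    av (fun xi : Fin M → Fin (J + 1) => ∑ k ∈ range N,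
      ind (t ≤ avg w q (a + 1) (fun y => nuJ c sh chi D xi y (o + (k : ℤ) * D)) x) *
        avg w q (a + 1) (fun y => nuJ c sh chi D xi y (o + (k : ℤ) * D)) x) ≤
      avg w q (a + 1) (fun y => ind (q0 < share w q a y)) x +
        t⁻¹ * (max q0 0 + (D : ℝ) / ((J : ℝ) + 1)) := by
  classical
  set F := univ.filter (fun y => q (a + 1) y = q (a + 1) x) with hF
  set W := ∑ y ∈ F, w y with hW
  have hWpos : 0 < W := w_fib_pos hw q (a + 1) x
  set p : X → ℝ := fun y => w y / W with hp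
  have hp0 : ∀ y, 0 ≤ p y := fun y => div_nonneg (hw y).le hWpos.le
  have hp1 : ∑ y ∈ F, p y = 1 := by
    simp only [hp]; rw [← sum_div]; exact div_self hWpos.ne'
  have havg : ∀ f : X → ℝ, avg w q (a + 1) f x = ∑ y ∈ F, p y * f y := by
    intro f
    unfold avg
    rw [← hF, ← hW, sum_div]
    exact sum_congr rfl fun y _ => by simp only [hp]; ring
  set bd : X → ℝ := fun y => ind (q0 < share w q a y) with hbd
  have hbd0 : ∀ y, 0 ≤ bd y := fun y => ind_nonneg _
  have hbd1 : ∀ y, bd y ≤ 1 := fun y => ind_le_one _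
  set q1 : ℝ := (D : ℝ) / ((J : ℝ) + 1) with hq1
  have hq10 : 0 ≤ q1 := by positivity
  simp only [havg]
  have hn : ∀ (xi : Fin M → Fin (J + 1)) y b, 0 ≤ nuJ c sh chi D xi y b := fun xi y b =>
    wd_nonneg (hc y) D _
  have hsum : ∀ (xi : Fin M → Fin (J + 1)) y,
      ∑ k ∈ range N, nuJ c sh chi D xi y (o + (k : ℤ) * D) ≤ 1 := by
    intro xi y
    refine le_trans (le_of_eq ?_)
      (sum_blocks (h0 y) (h1 y) D N (o - sh y - ((xi (chi y) : ℕ) : ℤ)))
    refine sum_congr rfl fun k _ => ?_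
    unfold nuJ
    congr 1; ring
  -- pointwise bound
  have hpt : ∀ (xi : Fin M → Fin (J + 1)), ∀ k ∈ range N,
      ind (t ≤ ∑ y ∈ F, p y * nuJ c sh chi D xi y (o + (k : ℤ) * D)) *
        (∑ y ∈ F, p y * nuJ c sh chi D xi y (o + (k : ℤ) * D)) ≤
      (∑ y ∈ F, p y * bd y * nuJ c sh chi D xi y (o + (k : ℤ) * D)) +
        t⁻¹ * ((∑ y ∈ F, p y * (1 - bd y) * nuJ c sh chi D xi y (o + (k : ℤ) * D)) *
          (∑ z ∈ F, p z * nuJ c sh chi D xi z (o + (k : ℤ) * D))) := by
    intro xi k _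
    refine pay ht ?_ ?_ ?_
    · exact sum_nonneg fun y _ => mul_nonneg (mul_nonneg (hp0 y) (hbd0 y)) (hn xi y _)
    · exact sum_nonneg fun y _ => mul_nonneg (mul_nonneg (hp0 y) (by linarith [hbd1 y]))
        (hn xi y _)
    · rw [← sum_add_distrib]
      exact sum_congr rfl fun y _ => by ring
  -- bad part
  have hbad : av (fun xi : Fin M → Fin (J + 1) => ∑ k ∈ range N,
      ∑ y ∈ F, p y * bd y * nuJ c sh chi D xi y (o + (k : ℤ) * D)) ≤ ∑ y ∈ F, p y * bd y := by
    have : av (fun xi : Fin M → Fin (J + 1) => ∑ k ∈ range N,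
        ∑ y ∈ F, p y * bd y * nuJ c sh chi D xi y (o + (k : ℤ) * D)) ≤
        av (fun _ : Fin M → Fin (J + 1) => ∑ y ∈ F, p y * bd y) := by
      refine av_mono fun xi => ?_
      rw [sum_comm]
      refine sum_le_sum fun y _ => ?_
      rw [← mul_sum]
      have := mul_le_mul_of_nonneg_left (hsum xi y) (mul_nonneg (hp0 y) (hbd0 y))
      linarith
    rwa [av_const] at this
  -- good part
  have hgood : av (fun xi : Fin M → Fin (J + 1) => ∑ k ∈ range N,
      (∑ y ∈ F, p y * (1 - bd y) * nuJ c sh chi D xi y (o + (k : ℤ) * D)) *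
          (∑ z ∈ F, p z * nuJ c sh chi D xi z (o + (k : ℤ) * D))) ≤ max q0 0 + q1 := by
    have hexp : av (fun xi : Fin M → Fin (J + 1) => ∑ k ∈ range N,
        (∑ y ∈ F, p y * (1 - bd y) * nuJ c sh chi D xi y (o + (k : ℤ) * D)) *
          (∑ z ∈ F, p z * nuJ c sh chi D xi z (o + (k : ℤ) * D))) =
        ∑ y ∈ F, ∑ z ∈ F, p y * (1 - bd y) * p z * av (fun xi : Fin M → Fin (J + 1) =>
          ∑ k ∈ range N, nuJ c sh chi D xi y (o + (k : ℤ) * D) *
            nuJ c sh chi D xi z (o + (k : ℤ) * D)) := by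
      have e1 : ∀ xi : Fin M → Fin (J + 1), (∑ k ∈ range N,
          (∑ y ∈ F, p y * (1 - bd y) * nuJ c sh chi D xi y (o + (k : ℤ) * D)) *
          (∑ z ∈ F, p z * nuJ c sh chi D xi z (o + (k : ℤ) * D))) =
          ∑ y ∈ F, ∑ z ∈ F, p y * (1 - bd y) * p z * (∑ k ∈ range N,
            nuJ c sh chi D xi y (o + (k : ℤ) * D) * nuJ c sh chi D xi z (o + (k : ℤ) * D)) := by
        intro xi
        have e2 : ∀ k ∈ range N,
            (∑ y ∈ F, p y * (1 - bd y) * nuJ c sh chi D xi y (o + (k : ℤ) * D)) *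
              (∑ z ∈ F, p z * nuJ c sh chi D xi z (o + (k : ℤ) * D)) =
            ∑ y ∈ F, ∑ z ∈ F, p y * (1 - bd y) * p z *
              (nuJ c sh chi D xi y (o + (k : ℤ) * D) *
                nuJ c sh chi D xi z (o + (k : ℤ) * D)) := by
          intro k _
          rw [sum_mul_sum]
          exact sum_congr rfl fun y _ => sum_congr rfl fun z _ => by ring
        rw [sum_congr rfl e2, sum_comm]
        refine sum_congr rfl fun y _ => ?_
        rw [sum_comm]
        refine sum_congr rfl fun z _ => ?_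
        rw [mul_sum]
      rw [av_congr e1, av_sum]
      refine sum_congr rfl fun y _ => ?_
      rw [av_sum]
      refine sum_congr rfl fun z _ => ?_
      rw [av_const_mul]
    rw [hexp]
    have hshare : ∀ y ∈ F, (1 - bd y) * ∑ z ∈ F, p z * (if chi z = chi y then 1 else 0) ≤
        (1 - bd y) * max q0 0 := by
      intro y hy
      by_cases hb : q0 < share w q a y
      · have : bd y = 1 := ind_true hb
        rw [this]; simp
      · have hb' : bd y = 0 := ind_false hb
        rw [hb', sub_zero, one_mul, one_mul]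
        refine le_trans ?_ (le_max_left _ _)
        refine le_trans ?_ (not_lt.mp hb)
        have hy' : q (a + 1) y = q (a + 1) x := by simpa [hF] using hy
        unfold share
        rw [hy', ← hF, ← hW]
        simp only [mul_ite, mul_one, mul_zero]
        rw [← sum_filter]
        simp only [hp]
        rw [← sum_div]
        refine div_le_div_of_nonneg_right ?_ hWpos.le
        refine sum_le_sum_of_subset_of_nonneg ?_ fun z _ _ => (hw z).le
        intro z hz
        simp only [mem_filter, mem_univ, true_and, hF] at hz ⊢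
        exact hchi z y (by rw [hz.1, hy']) hz.2
    calc ∑ y ∈ F, ∑ z ∈ F, p y * (1 - bd y) * p z * av (fun xi : Fin M → Fin (J + 1) =>
          ∑ k ∈ range N, nuJ c sh chi D xi y (o + (k : ℤ) * D) *
            nuJ c sh chi D xi z (o + (k : ℤ) * D))
        ≤ ∑ y ∈ F, ∑ z ∈ F, p y * (1 - bd y) * p z * ((if chi z = chi y then 1 else 0) + q1) := by
          refine sum_le_sum fun y _ => sum_le_sum fun z _ => ?_
          refine mul_le_mul_of_nonneg_left (pair_le hc h0 h1 sh chi D N o y z) ?_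
          exact mul_nonneg (mul_nonneg (hp0 y) (by linarith [hbd1 y])) (hp0 z)
      _ = ∑ y ∈ F, (p y * ((1 - bd y) * ∑ z ∈ F, p z * (if chi z = chi y then 1 else 0)) +
            p y * (1 - bd y) * q1 * ∑ z ∈ F, p z) := by
          refine sum_congr rfl fun y _ => ?_
          rw [mul_sum, mul_sum, mul_sum, ← sum_add_distrib]
          exact sum_congr rfl fun z _ => by ring
      _ ≤ ∑ y ∈ F, (p y * (max q0 0) + p y * q1) := by
          refine sum_le_sum fun y hy => ?_
          rw [hp1, mul_one]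
          have e1 := mul_le_mul_of_nonneg_left (hshare y hy) (hp0 y)
          have e2 : (1 - bd y) * max q0 0 ≤ max q0 0 := by
            have := hbd0 y
            have := le_max_right q0 (0 : ℝ)
            nlinarith
          have e3 := mul_le_mul_of_nonneg_left e2 (hp0 y)
          have e4 : p y * (1 - bd y) * q1 ≤ p y * q1 := by
            have := mul_nonneg (mul_nonneg (hp0 y) (hbd0 y)) hq10
            nlinarith
          linarith
      _ = max q0 0 + q1 := by
          rw [sum_add_distrib, ← sum_mul, ← sum_mul, hp1]; ring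
  calc av (fun xi : Fin M → Fin (J + 1) => ∑ k ∈ range N,
      ind (t ≤ ∑ y ∈ F, p y * nuJ c sh chi D xi y (o + (k : ℤ) * D)) *
        (∑ y ∈ F, p y * nuJ c sh chi D xi y (o + (k : ℤ) * D)))
      ≤ av (fun xi : Fin M → Fin (J + 1) => (∑ k ∈ range N,
          ∑ y ∈ F, p y * bd y * nuJ c sh chi D xi y (o + (k : ℤ) * D)) +
        t⁻¹ * ∑ k ∈ range N,
          (∑ y ∈ F, p y * (1 - bd y) * nuJ c sh chi D xi y (o + (k : ℤ) * D)) *
          (∑ z ∈ F, p z * nuJ c sh chi D xi z (o + (k : ℤ) * D))) := by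
        refine av_mono fun xi => ?_
        rw [mul_sum, ← sum_add_distrib]
        exact sum_le_sum fun k hk => hpt xi k hk
    _ ≤ ∑ y ∈ F, p y * bd y + t⁻¹ * (max q0 0 + q1) := by
        rw [av_add, av_const_mul]
        have := mul_le_mul_of_nonneg_left hgood (inv_pos.2 ht).le
        linarith

end Main

/-! ### Averages over the random data -/

section Level

variable {X : Type} [Fintype X] [Nonempty X] {Ω : Type*} [Fintype Ω] [Nonempty Ω] {𝒜 : Type*}
variable {M J : ℕ}

/-- **One level.** `xi ω` = jitters of the children of the nodes of level `a + 1`, uniform and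
independent of the rest (`hR`; `mv` changes only these jitters); the curve of the child above the
leaf `x` is `c ω x` in its own index, read at the own index `β - sh ω x - xi ω (chi x)`.
The expected mass of the blocks `[o + k D, o + (k+1) D)` in which the average of the children has
mass at least `t` is at most (mass of the children with share above `q0`) + `(q0 + D/(J+1)) / t`. -/
theorem heavy_level (w : X → ℝ) (hw : ∀ x, 0 < w x) (q : ℕ → X → ℕ) (a : ℕ)
    (chi : X → Fin M)
    (hchi : ∀ x y, q (a + 1) x = q (a + 1) y → chi x = chi y → q a x = q a y)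
    (xi : Ω → Fin M → Fin (J + 1)) (mv : 𝒜 → Ω → Ω)
    (hR : ∀ F : (Fin M → Fin (J + 1)) → Ω → ℝ, (∀ y u ω, F y (mv u ω) = F y ω) →
      av (fun ω => F (xi ω) ω) = av (fun ω => av (fun y => F y ω)))
    (c : Ω → X → ℤ → ℝ) (hc : ∀ ω y, Antitone (c ω y)) (h0 : ∀ ω y b, 0 ≤ c ω y b)
    (h1 : ∀ ω y b, c ω y b ≤ 1) (sh : Ω → X → ℤ)
    (hcm : ∀ u ω, c (mv u ω) = c ω) (hshm : ∀ u ω, sh (mv u ω) = sh ω)
    (e : Ω → X → ℕ → ℝ)
    (he : ∀ ω x (β : ℕ), e ω x β = c ω x ((β : ℤ) - sh ω x - ((xi ω (chi x) : ℕ) : ℤ)))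
    (D N o : ℕ) {t q0 : ℝ} (ht : 0 < t) (hq0 : 0 ≤ q0) :
    av (fun ω => EE w (fun x => ∑ k ∈ range N,
      ind (t ≤ avg w q (a + 1) (fun y => e ω y (o + k * D)) x -
        avg w q (a + 1) (fun y => e ω y (o + (k + 1) * D)) x) *
      (avg w q (a + 1) (fun y => e ω y (o + k * D)) x -
        avg w q (a + 1) (fun y => e ω y (o + (k + 1) * D)) x))) ≤
      EE w (fun x => ind (q0 < share w q a x)) + t⁻¹ * (q0 + (D : ℝ) / ((J : ℝ) + 1)) := by
  classical
  set Φ : X → (Fin M → Fin (J + 1)) → Ω → ℝ := fun x y ω => ∑ k ∈ range N,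
    ind (t ≤ avg w q (a + 1) (fun z => nuJ (c ω) (sh ω) chi D y z
        (((o : ℕ) : ℤ) + (k : ℤ) * D)) x) *
      avg w q (a + 1) (fun z => nuJ (c ω) (sh ω) chi D y z
        (((o : ℕ) : ℤ) + (k : ℤ) * D)) x with hΦ
  have hdiff : ∀ ω x, ∀ k : ℕ, avg w q (a + 1) (fun y => e ω y (o + k * D)) x -
        avg w q (a + 1) (fun y => e ω y (o + (k + 1) * D)) x =
      avg w q (a + 1) (fun z => nuJ (c ω) (sh ω) chi D (xi ω) z
        (((o : ℕ) : ℤ) + (k : ℤ) * D)) x := by
    intro ω x k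
    rw [← avg_sub]
    congr 1
    funext z
    rw [he, he]
    unfold nuJ wd
    congr 2 <;> (push_cast; ring)
  have hx : ∀ x, av (fun ω => Φ x (xi ω) ω) ≤
      avg w q (a + 1) (fun y => ind (q0 < share w q a y)) x +
        t⁻¹ * (q0 + (D : ℝ) / ((J : ℝ) + 1)) := by
    intro x
    rw [hR (Φ x) (fun y u ω => by simp only [hΦ, hcm, hshm])]
    refine H731.av_le fun ω => ?_
    have := heavy_parent w hw q a chi hchi (hc ω) (h0 ω) (h1 ω) (sh ω) D N ((o : ℕ) : ℤ)
      (J := J) (q0 := q0) ht x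
    rwa [max_eq_left hq0] at this
  have hEE : ∀ ω, EE w (fun x => ∑ k ∈ range N,
      ind (t ≤ avg w q (a + 1) (fun y => e ω y (o + k * D)) x -
        avg w q (a + 1) (fun y => e ω y (o + (k + 1) * D)) x) *
      (avg w q (a + 1) (fun y => e ω y (o + k * D)) x -
        avg w q (a + 1) (fun y => e ω y (o + (k + 1) * D)) x)) =
      EE w (fun x => Φ x (xi ω) ω) := by
    intro ω
    congr 1
    funext x
    simp only [hΦ]
    exact sum_congr rfl fun k _ => by rw [hdiff]
  have hswap : av (fun ω => EE w (fun x => Φ x (xi ω) ω)) =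
      EE w (fun x => av (fun ω => Φ x (xi ω) ω)) := by
    unfold EE
    rw [H731.av_div_const, av_sum]
    congr 1
    exact sum_congr rfl fun x _ => by rw [av_const_mul]
  rw [av_congr hEE, hswap]
  refine (EE_mono hw hx).trans (le_of_eq ?_)
  rw [EE_add, EE_const hw, EE_avg hw]

end Level

/-! ### All levels, for a family of systems -/

section All

variable {X : Type} [Fintype X] [Nonempty X] {Ω : Type*} [Fintype Ω] [Nonempty Ω]

/-- Mass of the blocks of scale `0` in which the units have average mass at least `t`. -/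
noncomputable def He (S : Sys X) (t : ℝ) (o : ℕ) : ℝ :=
  ∑ a ∈ range S.n, S.E (fun x => ∑ k ∈ range (S.nb 0),
    ind (t ≤ S.rho o 0 a x k) * S.rho o 0 a x k)

/-- **STEP 1, expectation.** A family of systems with the same leaves, weights, ancestors, number
of levels, blocks of scale `0`; the curves of level `a < n` are jittered own curves. -/
theorem av_He {M J : ℕ} {𝒜 : Type*} (S : Ω → Sys X) (w : X → ℝ) (hw : ∀ x, 0 < w x)
    (q : ℕ → X → ℕ) (n N D : ℕ) (hSw : ∀ ω, (S ω).w = w) (hSq : ∀ ω, (S ω).q = q)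
    (hSn : ∀ ω, (S ω).n = n) (hSN : ∀ ω, (S ω).nb 0 = N) (hSD : ∀ ω, (S ω).D 0 = D)
    (chi : ℕ → X → Fin M)
    (hchi : ∀ a, a < n → ∀ x y, q (a + 1) x = q (a + 1) y → chi a x = chi a y → q a x = q a y)
    (xi : ℕ → Ω → Fin M → Fin (J + 1)) (mv : ℕ → 𝒜 → Ω → Ω)
    (hR : ∀ a, a < n → ∀ F : (Fin M → Fin (J + 1)) → Ω → ℝ,
      (∀ y u ω, F y (mv a u ω) = F y ω) →
      av (fun ω => F (xi a ω) ω) = av (fun ω => av (fun y => F y ω)))
    (c : ℕ → Ω → X → ℤ → ℝ) (hc : ∀ a, a < n → ∀ ω y, Antitone (c a ω y))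
    (h0 : ∀ a, a < n → ∀ ω y b, 0 ≤ c a ω y b) (h1 : ∀ a, a < n → ∀ ω y b, c a ω y b ≤ 1)
    (sh : ℕ → Ω → X → ℤ) (hcm : ∀ a, a < n → ∀ u ω, c a (mv a u ω) = c a ω)
    (hshm : ∀ a, a < n → ∀ u ω, sh a (mv a u ω) = sh a ω)
    (he : ∀ a, a < n → ∀ ω x (β : ℕ), (S ω).e a x β =
      c a ω x ((β : ℤ) - sh a ω x - ((xi a ω (chi a x) : ℕ) : ℤ)))
    (o : ℕ) {t q0 : ℝ} (ht : 0 < t) (hq0 : 0 ≤ q0) :
    av (fun ω => He (S ω) t o) ≤ ∑ a ∈ range n, EE w (fun x => ind (q0 < share w q a x)) +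
      n * (t⁻¹ * (q0 + (D : ℝ) / ((J : ℝ) + 1))) := by
  have h : ∀ ω, He (S ω) t o = ∑ a ∈ range n, EE w (fun x => ∑ k ∈ range N,
      ind (t ≤ avg w q (a + 1) (fun y => (S ω).e a y (o + k * D)) x -
        avg w q (a + 1) (fun y => (S ω).e a y (o + (k + 1) * D)) x) *
      (avg w q (a + 1) (fun y => (S ω).e a y (o + k * D)) x -
        avg w q (a + 1) (fun y => (S ω).e a y (o + (k + 1) * D)) x)) := by
    intro ω
    unfold He Sys.E
    rw [hSw, hSn, hSN]
    refine sum_congr rfl fun a _ => ?_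
    congr 1
    funext x
    refine sum_congr rfl fun k _ => ?_
    have hr : (S ω).rho o 0 a x k = avg w q (a + 1) (fun y => (S ω).e a y (o + k * D)) x -
        avg w q (a + 1) (fun y => (S ω).e a y (o + (k + 1) * D)) x := by
      unfold Sys.rho Sys.V Sys.av Sys.b0 Sys.b1
      rw [hSw, hSq, hSD]
      simp only [pow_zero, mul_one]
    rw [hr]
  rw [av_congr h, av_sum]
  calc ∑ a ∈ range n, av (fun ω => EE w (fun x => ∑ k ∈ range N,
      ind (t ≤ avg w q (a + 1) (fun y => (S ω).e a y (o + k * D)) x -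
        avg w q (a + 1) (fun y => (S ω).e a y (o + (k + 1) * D)) x) *
      (avg w q (a + 1) (fun y => (S ω).e a y (o + k * D)) x -
        avg w q (a + 1) (fun y => (S ω).e a y (o + (k + 1) * D)) x)))
      ≤ ∑ a ∈ range n, (EE w (fun x => ind (q0 < share w q a x)) +
        t⁻¹ * (q0 + (D : ℝ) / ((J : ℝ) + 1))) := by
        refine sum_le_sum fun a ha => ?_
        have ha' := mem_range.1 ha
        exact heavy_level w hw q a (chi a) (hchi a ha') (xi a) (mv a) (hR a ha') (c a)
          (hc a ha') (h0 a ha') (h1 a ha') (sh a) (hcm a ha') (hshm a ha')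
          (fun ω x β => (S ω).e a x β) (he a ha') D N o ht hq0
    _ = _ := by
        rw [sum_add_distrib, sum_const, card_range, nsmul_eq_mul]

end All

end Vale.Agent.P315.H226
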